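import Vale.Agent.P159.Bdl.B9

/-!
P159, near-critical regime, second version: the energy of the vortex, uniformly in the cell size.
-/

namespace Vale.Agent.P159.T1.NC.H831

open Vale.Agent.P159 Vale.Agent.P159.UJ
open scoped BigOperators

/-- the energy of the vortex around any of the `M × M` positions, with `m0` independent of the side
`l` of the cells (row S2) -/
def GLowU (B : ℝ) : Prop := ∃ CG : ℝ, 0 ≤ CG ∧ ∀ K M : ℕ, 1 ≤ K → 1 ≤ M → ∃ m0 : ℕ, 4 ≤ m0 ∧
  ∀ b : ℝ, 0 < b → b ≤ B → ∀ l m : ℕ, 1 ≤ l → m0 ≤ m → ∀ i j : ℕ, i < M → j < M →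
    Real.exp (-(Real.pi * stiff l b * Real.log (NN K M)) - CG) * yy b (l * m) ≤
      (∏ k ∈ outer m K M i j, WB b l (cor l k) (alp l m K M i j) / WB b l (cor l k) 0) *
      (WB b (l * m) (cnr l m K M i j) (alp l m K M i j) / WB b (l * m) (cnr l m K M i j) 0)

end Vale.Agent.P159.T1.NC.H831
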