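import Vale.Agent.P159.T1.NC.H664.StepQ

/-!
P159, near-critical regime: `stepQ` of helper664 with the threshold `1 / (4 π)` in place of
`1 / (2 π)`.
-/

set_option linter.all false

open MeasureTheory Filter Topology
open scoped BigOperators

namespace Vale.Agent.P159.UJ.H831

open Vale.Agent.P159.UJ.H664

theorem mean_diff_t {t K s ν C0 A mp mq : ℝ} (ht : 1 / (4 * Real.pi) ≤ t) (hK : 0 ≤ K)
    (hs : 0 < s) (hν : 1 ≤ ν) (hKC : C0 ≤ Real.pi * K) (hm : mp - mq = t * A)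
    (hA : 2 * Real.pi * K * s * ν - C0 * s ≤ |A|) :
    2 * (1 * s * (K * ν / 2) / 4) ≤ |mp - mq| := by
  have hpi := Real.pi_pos
  have ht0 : 0 ≤ t := le_trans (by positivity) ht
  rw [hm, abs_mul, abs_of_nonneg ht0]
  have h1 : Real.pi * K * s * ν ≤ |A| := by
    refine le_trans ?_ hA
    have h2 : C0 * s ≤ Real.pi * K * s * ν := by
      calc C0 * s ≤ Real.pi * K * s := mul_le_mul_of_nonneg_right hKC hs.le
        _ ≤ Real.pi * K * s * ν := le_mul_of_one_le_right (by positivity) hν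
    linarith
  calc 2 * (1 * s * (K * ν / 2) / 4) = 1 / (4 * Real.pi) * (Real.pi * K * s * ν) := by
        field_simp
    _ ≤ t * |A| := mul_le_mul ht h1 (by positivity) ht0

theorem one_t {b : ℝ} (hb : 0 < b) {C0 s1 : ℝ} (hC0 : 1 ≤ C0)
    (hinc : ∀ l m K M i j : ℕ, 1 ≤ l → 1 ≤ K → i < M →
    j < M → s1 ≤ ((l * m : ℕ) : ℝ) → ∀ k ∈ outer m K M i j, ∀ e : BI l,
      |ainc l m K M i j k e| ≤ C0 / ((l * m : ℕ) : ℝ) ∧
      ∀ e' : BI l, hh e = hh e' → |ainc l m K M i j k e - ainc l m K M i j k e'| ≤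
        C0 * l / ((l * m : ℕ) : ℝ) ^ 2) {l : ℕ} (hl : 1 ≤ l)
    {C Y0 : ℝ} (hC : 0 ≤ C) (hY0 : 0 < Y0) (hcell : CellP b l C Y0) :
    ∀ K M m : ℕ, 1 ≤ K → 1 ≤ m →
      max s1 (max 4 (C0 / Y0)) ≤ ((l * m : ℕ) : ℝ) → ∀ δ : ℝ, stiff l b - stiff (l * (m * NN K M)) b ≤ δ →
      ∀ S ⊆ cells (m * NN K M), ((S.card : ℕ) : ℝ) ≤ 2 * (m : ℝ) ^ 2 →
      ∀ i j : ℕ, i < M → j < M → core m K M i j ⊆ S → ∀ (h : BI l → ℝ), (h = hh ∨ h = vv) →
      ∀ ρ : ℝ, 1 ≤ ρ →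
      Real.sqrt (Ev b (l * (m * NN K M)) 0 (fun x => psi (1 * ((l * m : ℕ) : ℝ) * ρ / 4)
        (TT b l h (cells (m * NN K M) \ S) (x + alp l m K M i j) -
          stiff l b * ∑ k ∈ cells (m * NN K M) \ S, ∑ e, 1 / 2 * h e *
            ainc l m K M i j k e))) ≤
      Real.sqrt ((576 + 96 * C0) * (NN K M : ℝ) ^ 2 * δ +
        24 * (NN K M : ℝ) ^ 2 * (C * (C0 * l + C0 ^ 2)) / ((l * m : ℕ) : ℝ)) +
      Real.sqrt (2 * Real.exp b) * Real.exp (-(1 * ρ) / 48) := by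
  have htail := tail_q hb hl hC hY0 hcell
  intro K M m hK hm1 hSl δ hδ1 S hSsub hcard i j hi hj hcS h hh' ρ hν1
  obtain ⟨s, hs⟩ : ∃ s : ℝ, s = ((l * m : ℕ) : ℝ) := ⟨_, rfl⟩
  rw [← hs] at hSl ⊢
  have hs1' : s1 ≤ s := (le_max_left _ _).trans hSl
  have hs4 : 4 ≤ s := ((le_max_left _ _).trans (le_max_right _ _)).trans hSl
  have hs5 : C0 / Y0 ≤ s := ((le_max_right _ _).trans (le_max_right _ _)).trans hSl
  have hs0 : 0 < s := by linarith only [hs4]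
  have hs4n : 4 ≤ l * m := by
    rw [hs] at hs4
    exact_mod_cast hs4
  have hC00 : 0 < C0 := by linarith only [hC0]
  have hNN : 1 ≤ NN K M := by unfold NN; omega
  have hlR : (1 : ℝ) ≤ l := by exact_mod_cast hl
  have hd : 0 < 1 * s * ρ / 4 := by positivity
  have hYY : C0 / s ≤ Y0 := by
    rw [div_le_iff₀ hY0] at hs5
    rw [div_le_iff₀ hs0]
    linarith only [hs5]
  have hn1 : 1 ≤ m * NN K M := Nat.mul_pos hm1 hNN
  have hδ0 : 0 ≤ stiff l b - stiff (l * (m * NN K M)) b := by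
    linarith only [stiff_mono hb.le hl hn1]
  have hXc : ∀ k ∈ cells (m * NN K M) \ S, k ∉ core m K M i j := fun k hk hk' =>
    (Finset.mem_sdiff.1 hk).2 (hcS hk')
  have hXou : ∀ k ∈ cells (m * NN K M) \ S, k ∈ outer m K M i j := fun k hk =>
    Finset.mem_sdiff.2 ⟨(Finset.mem_sdiff.1 hk).1, hXc k hk⟩
  have h1 := htail (m * NN K M) hn1 S hSsub (alp l m K M i j) (ainc l m K M i j)
    (C0 / s) (C0 * l / s ^ 2) (by positivity) hYY (by positivity)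
    (fun k hk e => ainc_coe hl (by omega) hK hi hj (hXc k hk) e)
    (fun k hk e => by
      have := (hinc l m K M i j hl hK hi hj (by rw [← hs]; exact hs1') k (hXou k hk) e).1
      rw [← hs] at this
      exact this)
    (fun k hk e e' hee => by
      have := (hinc l m K M i j hl hK hi hj (by rw [← hs]; exact hs1') k (hXou k hk) e).2
        e' hee
      rw [← hs] at this
      exact this)
    h hh' (1 * s * ρ / 4) (1 / s) hd (by positivity)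
  have h2 := tail_numeric (s := s) (N := (NN K M : ℝ)) (K := 1) (ν := ρ) (C0 := C0)
    (C := C) (l := (l : ℝ)) (m := (m : ℝ)) (n := ((m * NN K M : ℕ) : ℝ))
    (L := ((l * (m * NN K M) : ℕ) : ℝ)) (δ := stiff l b - stiff (l * (m * NN K M)) b)
    (b := b) (card := (S.card : ℝ)) hs0 le_rfl hν1 hC00.le hC hlR
    (by positivity) (by rw [hs]; push_cast; ring) (by push_cast; ring) (by push_cast; ring)
    hδ0 hb.le hcard
  have h3 := h1.trans h2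
  have h4 : Ev b (l * (m * NN K M)) 0 (fun x => psi (1 * s * ρ / 4)
      (TT b l h (cells (m * NN K M) \ S) (x + alp l m K M i j) -
        stiff l b * ∑ k ∈ cells (m * NN K M) \ S, ∑ e, 1 / 2 * h e *
          ainc l m K M i j k e)) ≤
      ((576 + 96 * C0) * (NN K M : ℝ) ^ 2 * δ +
      24 * (NN K M : ℝ) ^ 2 * (C * (C0 * l + C0 ^ 2)) / s) +
      2 * Real.exp b * Real.exp (-(1 * ρ) / 24) := by
    refine h3.trans ?_
    have : (576 + 96 * C0) * (NN K M : ℝ) ^ 2 * (stiff l b - stiff (l * (m * NN K M)) b) ≤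
        (576 + 96 * C0) * (NN K M : ℝ) ^ 2 * δ :=
      mul_le_mul_of_nonneg_left hδ1 (by positivity)
    linarith only [this]
  refine (Real.sqrt_le_sqrt h4).trans ?_
  have hδ' : 0 ≤ δ := hδ0.trans hδ1
  refine (sqrt_add_le' (by positivity) (by positivity)).trans ?_
  refine add_le_add le_rfl (le_of_eq ?_)
  rw [Real.sqrt_mul (by positivity)]
  congr 1
  have e1 : Real.exp (-(1 * ρ) / 24) = Real.exp (-(1 * ρ) / 48) ^ 2 := by
    rw [← Real.exp_nat_mul]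
    congr 1
    push_cast
    ring
  rw [e1, Real.sqrt_sq (Real.exp_pos _).le]

theorem aff_t :
    ∃ C0 S0 : ℝ, 1 ≤ C0 ∧ 4 ≤ S0 ∧ ∀ b : ℝ, 0 < b → ∀ l : ℕ, 1 ≤ l →
      1 / (4 * Real.pi) ≤ stiff l b → ∀ C Y0 : ℝ, 0 ≤ C → 0 < Y0 → CellP b l C Y0 →
      ∀ K M m : ℕ, 2 ≤ K → C0 ≤ Real.pi * K → max S0 (C0 / Y0) ≤ ((l * m : ℕ) : ℝ) → ∀ δ : ℝ,
      stiff l b - stiff (l * m * NN K M) b ≤ δ → ∀ i j i' j' : ℕ, i < M → j < M → i' < M →
      j' < M → ∀ (h : BI l → ℝ) (ν : ℝ), (h = hh ∧ ν = |(j : ℝ) - j'| ∨ h = vv ∧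
      ν = |(i : ℝ) - i'|) → 1 ≤ ν →
      Ev b (l * m * NN K M) (ang (l * m * NN K M) 0)
        (fun θ => Real.sqrt (Dn b l m K M i j θ) * Real.sqrt (Dn b l m K M i' j' θ)) ≤
      2 * Real.sqrt ((576 + 96 * C0) * (NN K M : ℝ) ^ 2 * δ +
        24 * (NN K M : ℝ) ^ 2 * (C * (C0 * l + C0 ^ 2)) / ((l * m : ℕ) : ℝ)) +
      2 * Real.sqrt (2 * Real.exp b) * Real.exp (-(1 * (K * ν / 2)) / 48) := by
  obtain ⟨C1, s1, hC1, hs1, hinc⟩ := geo_inc
  obtain ⟨C2, s2, hC2, hs2, hrh⟩ := geo_rows_h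
  obtain ⟨C3, s3, hC3, hs3, hrv⟩ := geo_rows_v
  obtain ⟨C0, hC0⟩ : ∃ C0, C0 = C1 + C2 + C3 := ⟨_, rfl⟩
  have hC01 : 1 ≤ C0 := by linarith
  refine ⟨C0, max (max s1 4) (max s2 s3), hC01, (le_max_right _ _).trans (le_max_left _ _), ?_⟩
  intro b hb l hl hst C Y0 hC hY0 hcell
  have hinc' : ∀ l m K M i j : ℕ, 1 ≤ l → 1 ≤ K → i < M →
    j < M → s1 ≤ ((l * m : ℕ) : ℝ) → ∀ k ∈ outer m K M i j, ∀ e : BI l,
      |ainc l m K M i j k e| ≤ C0 / ((l * m : ℕ) : ℝ) ∧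
      ∀ e' : BI l, hh e = hh e' → |ainc l m K M i j k e - ainc l m K M i j k e'| ≤
        C0 * l / ((l * m : ℕ) : ℝ) ^ 2 := by
    intro l m K M i j hl hK hi hj hs k hk e
    obtain ⟨a1, a2⟩ := hinc l m K M i j hl hK hi hj hs k hk e
    refine ⟨a1.trans (div_le_div_of_nonneg_right (by linarith only [hC2, hC3, hC0]) (by positivity)), ?_⟩
    intro e' hee
    refine (a2 e' hee).trans (div_le_div_of_nonneg_right ?_ (by positivity))
    exact mul_le_mul_of_nonneg_right (by linarith) (by positivity)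
  have htail := one_t hb hC01 hinc' hl hC hY0 hcell
  intro K M m hK2 hKC hSl δ hδ i j i' j' hi hj hi' hj' h ν hν hν1
  have hK : 1 ≤ K := by omega
  have hK2R : (2 : ℝ) ≤ K := by exact_mod_cast hK2
  have hρ1 : 1 ≤ (K : ℝ) * ν / 2 := by nlinarith
  have hSa := (le_max_left _ _).trans hSl
  have hSb := (le_max_right _ _).trans hSl
  have hs2' : s2 ≤ ((l * m : ℕ) : ℝ) :=
    ((le_max_left _ _).trans (le_max_right _ _)).trans hSa
  have hs3' : s3 ≤ ((l * m : ℕ) : ℝ) :=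
    ((le_max_right _ _).trans (le_max_right _ _)).trans hSa
  have hSl4 : (4 : ℝ) ≤ ((l * m : ℕ) : ℝ) := ((le_max_right _ _).trans (le_max_left _ _)).trans hSa
  have hSl1 : s1 ≤ ((l * m : ℕ) : ℝ) := ((le_max_left _ _).trans (le_max_left _ _)).trans hSa
  have hSl' : max s1 (max 4 (C0 / Y0)) ≤ ((l * m : ℕ) : ℝ) := max_le hSl1 (max_le hSl4 hSb)
  have hs0 : (0 : ℝ) < ((l * m : ℕ) : ℝ) := by linarith
  have hs4n : 4 ≤ l * m := by
    have : (4 : ℝ) ≤ ((l * m : ℕ) : ℝ) := hSl4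
    exact_mod_cast this
  have hm1 : 1 ≤ m := by
    rcases Nat.eq_zero_or_pos m with h0 | h0
    · rw [h0, mul_zero] at hs4n; omega
    · exact h0
  have hLn : l * m * NN K M = l * (m * NN K M) := Nat.mul_assoc _ _ _
  have hSsub : core m K M i j ∪ core m K M i' j' ⊆ cells (m * NN K M) :=
    Finset.union_subset (core_sub hK hi hj) (core_sub hK hi' hj')
  have hcard : (((core m K M i j ∪ core m K M i' j').card : ℕ) : ℝ) ≤ 2 * (m : ℝ) ^ 2 := by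
    have h1 : (core m K M i j ∪ core m K M i' j').card ≤ m ^ 2 + m ^ 2 := by
      refine (Finset.card_union_le _ _).trans ?_
      rw [core_card, core_card]
    have h2 : (((core m K M i j ∪ core m K M i' j').card : ℕ) : ℝ) ≤
      ((m ^ 2 + m ^ 2 : ℕ) : ℝ) := by exact_mod_cast h1
    refine h2.trans (le_of_eq ?_)
    push_cast
    ring
  have hh'' : h = hh ∨ h = vv := by
    rcases hν with ⟨h1, _⟩ | ⟨h1, _⟩
    · exact Or.inl h1
    · exact Or.inr h1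
  have hrow : 2 * Real.pi * K * ((l * m : ℕ) : ℝ) * ν - C0 * ((l * m : ℕ) : ℝ) ≤
      |∑ k ∈ cells (m * NN K M) \ (core m K M i j ∪ core m K M i' j'), ∑ e, 1 / 2 * h e *
      (ainc l m K M i j k e - ainc l m K M i' j' k e)| := by
    rcases hν with ⟨hh', hν'⟩ | ⟨hh', hν'⟩
    · rw [hh', hν']
      refine le_trans ?_ (hrh l m K M i j i' j' hl hK hi hj hi' hj' hs2')
      have : C2 * ((l * m : ℕ) : ℝ) ≤ C0 * ((l * m : ℕ) : ℝ) :=
        mul_le_mul_of_nonneg_right (by linarith only [hC1, hC3, hC0]) hs0.le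
      linarith only [this]
    · rw [hh', hν']
      refine le_trans ?_ (hrv l m K M i j i' j' hl hK hi hj hi' hj' hs3')
      have : C3 * ((l * m : ℕ) : ℝ) ≤ C0 * ((l * m : ℕ) : ℝ) :=
        mul_le_mul_of_nonneg_right (by linarith only [hC1, hC2, hC0]) hs0.le
      linarith only [this]
  have hd2 := mean_diff_t hst (Nat.cast_nonneg K) hs0 hν1 hKC
    (mean_sub (stiff l b) (cells (m * NN K M) \ (core m K M i j ∪ core m K M i' j')) h
      (ainc l m K M i j) (ainc l m K M i' j')) hrow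
  have hd : 0 < 1 * ((l * m : ℕ) : ℝ) * ((K : ℝ) * ν / 2) / 4 := by
    have : (0 : ℝ) < K := by exact_mod_cast hK
    positivity
  refine (affinity (b := b)
    (X := cells (m * NN K M) \ (core m K M i j ∪ core m K M i' j'))
    hl hs4n hK hi hj hi' hj' h hd hd2
    (fun k hk hk' => (Finset.mem_sdiff.1 hk).2 (Finset.mem_union_left _ hk'))
    (fun k hk hk' => (Finset.mem_sdiff.1 hk).2 (Finset.mem_union_right _ hk'))).trans ?_
  rw [hLn] at hδ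
  have a1 := htail K M m hK hm1 hSl' δ hδ _ hSsub hcard i j hi hj Finset.subset_union_left
    h hh'' _ hρ1
  have a2 := htail K M m hK hm1 hSl' δ hδ _ hSsub hcard i' j' hi' hj' Finset.subset_union_right
    h hh'' _ hρ1
  rw [← hLn] at a1 a2
  linarith only [a1, a2]

/-- one step of the recursion, quantitative -/
theorem stepT (B : ℝ) (hB : 0 < B) : ∃ (C1 : ℝ) (K : ℕ), 0 ≤ C1 ∧ 1 ≤ K ∧ ∀ M : ℕ, 1 ≤ M →
    ∃ (δ0 A : ℝ), 0 < δ0 ∧ 1 ≤ A ∧ ∀ b : ℝ, 0 < b → b ≤ B → ∀ l m : ℕ, 1 ≤ l →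
      1 / (4 * Real.pi) ≤ stiff l b → A * (l : ℝ) ^ 11 ≤ ((l * m : ℕ) : ℝ) →
      stiff l b - stiff (l * m * NN K M) b ≤ δ0 →
      (M : ℝ) ^ 2 / 2 * (Real.exp (-(Real.pi * stiff l b * Real.log (NN K M)) - C1) *
        yy b (l * m)) ≤ yy b (l * m * NN K M) := by
  obtain ⟨C0, S0, hC0, hS0, haff⟩ := aff_t
  obtain ⟨C2, Cg, s0, hC2, hCg, hg⟩ := g_q
  have hpi := Real.pi_pos
  -- choice of K
  obtain ⟨A, hA⟩ : ∃ A : ℝ, A = 2 * Real.sqrt (2 * Real.exp B) := ⟨_, rfl⟩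
  have hA0 : 0 ≤ A := by rw [hA]; positivity
  have htend : Tendsto (fun K : ℕ => Real.exp (-((K : ℝ) / 192))) atTop (𝓝 0) := by
    have h1 : Tendsto (fun K : ℕ => (K : ℝ) / 192) atTop atTop :=
      tendsto_natCast_atTop_atTop.atTop_div_const (by norm_num)
    exact Real.tendsto_exp_neg_atTop_nhds_zero.comp h1
  have hev1 : ∀ᶠ K : ℕ in atTop, Real.exp (-((K : ℝ) / 192)) < min (1 / 10) (1 / (10 * A + 1)) :=
    htend.eventually (eventually_lt_nhds (by (clear * - hA0; positivity)))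
  have hev2 : ∀ᶠ K : ℕ in atTop, C0 ≤ Real.pi * K := by
    have h1 : Tendsto (fun K : ℕ => Real.pi * (K : ℝ)) atTop atTop :=
      tendsto_natCast_atTop_atTop.const_mul_atTop hpi
    exact h1.eventually (eventually_ge_atTop C0)
  obtain ⟨K, hK1, hK2, hK4⟩ := (hev1.and (hev2.and (eventually_ge_atTop 2))).exists
  have hK3 : 1 ≤ K := by omega
  obtain ⟨ρ, hρ⟩ : ∃ ρ, ρ = Real.exp (-((K : ℝ) / 192)) := ⟨_, rfl⟩
  rw [← hρ] at hK1
  have hρ0 : 0 < ρ := by rw [hρ]; exact Real.exp_pos _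
  have hρ1 : ρ ≤ 1 / 10 := (hK1.le).trans (min_le_left _ _)
  have hρ2 : 5 * A * ρ ≤ 1 / 2 := by
    have h1 : ρ ≤ 1 / (10 * A + 1) := (hK1.le).trans (min_le_right _ _)
    rw [le_div_iff₀ (by (clear * - hA0; positivity))] at h1
    nlinarith only [hρ0, h1]
  refine ⟨B * C2 / 2 + 1, K, by positivity, hK3, ?_⟩
  intro M hM
  have hMR : (0 : ℝ) < M := by exact_mod_cast hM
  obtain ⟨N, hN⟩ : ∃ N : ℝ, N = (NN K M : ℝ) := ⟨_, rfl⟩
  have hN1 : 1 ≤ N := by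
    rw [hN]
    have : 1 ≤ NN K M := by unfold NN; omega
    exact_mod_cast this
  have hc : 0 < (576 + 96 * C0) * N ^ 2 := by (clear * - hC0 hN1; positivity)
  -- the constants of the cells are bounded by a polynomial in the side
  obtain ⟨A1, hA11, hA1⟩ : ∃ A1 : ℝ, 1 ≤ A1 ∧ ∀ b : ℝ, 0 < b → b ≤ B → ∀ l : ℕ, 1 ≤ l →
      cC b l ≤ A1 * (l : ℝ) ^ 10 ∧ 1 / H664.cY b l ≤ A1 * (l : ℝ) ^ 10 ∧
      2 * (Sb b l + 2 * Sb b l ^ 2) ≤ A1 * (l : ℝ) ^ 10 := poly_const hB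
  obtain ⟨AA, hAA⟩ : ∃ AA : ℝ, AA = S0 + |s0| + C0 * A1 + 2 * N ^ 2 * A1 * Cg ^ 2 +
      24 * N ^ 2 * (A1 * (C0 + C0 ^ 2)) * (32 * (M : ℝ) ^ 4) := ⟨_, rfl⟩
  have t1 : 0 ≤ |s0| := abs_nonneg _
  have t2 : 0 ≤ C0 * A1 := by positivity
  have t3 : 0 ≤ 2 * N ^ 2 * A1 * Cg ^ 2 := by positivity
  have t4 : 0 ≤ 24 * N ^ 2 * (A1 * (C0 + C0 ^ 2)) * (32 * (M : ℝ) ^ 4) := by positivity
  refine ⟨1 / (32 * (M : ℝ) ^ 4 * ((576 + 96 * C0) * N ^ 2)), AA,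
    by (clear * - hM hC0 hN1; positivity), by linarith only [hAA, t1, t2, t3, t4, hS0], ?_⟩
  intro b hb hbB l m hl hst hm hδ'
  obtain ⟨q1, q2, q3⟩ := hA1 b hb hbB l hl
  have hcC := cC_nonneg hb.le l
  have hcY := cY_pos hb.le l
  have hlR : (1 : ℝ) ≤ l := by exact_mod_cast hl
  have hl11 : (1 : ℝ) ≤ (l : ℝ) ^ 11 := one_le_pow₀ hlR
  have hl10 : (l : ℝ) ^ 10 ≤ (l : ℝ) ^ 11 := pow_le_pow_right₀ hlR (by norm_num)
  have key : ∀ x : ℝ, 0 ≤ x → x ≤ AA → x * (l : ℝ) ^ 11 ≤ ((l * m : ℕ) : ℝ) := fun x _ hx =>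
    (mul_le_mul_of_nonneg_right hx (by positivity)).trans hm
  have hS0' : S0 ≤ ((l * m : ℕ) : ℝ) := by
    have := key S0 (by linarith only [hS0]) (by linarith only [hAA, t1, t2, t3, t4])
    have h2 : S0 * 1 ≤ S0 * (l : ℝ) ^ 11 := mul_le_mul_of_nonneg_left hl11 (by linarith only [hS0])
    linarith only [this, h2]
  have hs0' : s0 ≤ ((l * m : ℕ) : ℝ) := by
    have := key |s0| t1 (by linarith only [hAA, hS0, t2, t3, t4])
    have h2 : |s0| * 1 ≤ |s0| * (l : ℝ) ^ 11 := mul_le_mul_of_nonneg_left hl11 t1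
    linarith only [this, h2, le_abs_self s0]
  have hY' : C0 / H664.cY b l ≤ ((l * m : ℕ) : ℝ) := by
    have := key (C0 * A1) t2 (by linarith only [hAA, hS0, t1, t3, t4])
    refine le_trans ?_ this
    rw [div_eq_mul_one_div, mul_assoc]
    refine mul_le_mul_of_nonneg_left (q2.trans ?_) (by linarith only [hC0])
    exact mul_le_mul_of_nonneg_left hl10 (by linarith only [hA11])
  have hG' : 2 * (NN K M : ℝ) ^ 2 * (2 * (Sb b l + 2 * Sb b l ^ 2)) * Cg ^ 2 ≤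
      ((l * m : ℕ) : ℝ) := by
    have := key (2 * N ^ 2 * A1 * Cg ^ 2) t3 (by linarith only [hAA, hS0, t1, t2, t4])
    refine le_trans ?_ this
    rw [← hN]
    have e1 : 2 * (Sb b l + 2 * Sb b l ^ 2) ≤ A1 * (l : ℝ) ^ 11 :=
      q3.trans (mul_le_mul_of_nonneg_left hl10 (by linarith only [hA11]))
    have e2 : 0 ≤ 2 * N ^ 2 * Cg ^ 2 := by positivity
    calc 2 * N ^ 2 * (2 * (Sb b l + 2 * Sb b l ^ 2)) * Cg ^ 2
        = 2 * N ^ 2 * Cg ^ 2 * (2 * (Sb b l + 2 * Sb b l ^ 2)) := by ring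
      _ ≤ 2 * N ^ 2 * Cg ^ 2 * (A1 * (l : ℝ) ^ 11) := mul_le_mul_of_nonneg_left e1 e2
      _ = _ := by ring
  have hA2 := haff b hb l hl hst (cC b l) (H664.cY b l) hcC hcY (cell_q hb hl)
  have hg2 := hg b hb l K M hl hK3
  obtain ⟨Cl, hCldef⟩ : ∃ Cl : ℝ, Cl = cC b l * (C0 * l + C0 ^ 2) := ⟨_, rfl⟩
  have hCl : 0 ≤ Cl := by rw [hCldef]; positivity
  rw [← hCldef] at hA2
  have hm1 : max S0 (C0 / H664.cY b l) ≤ ((l * m : ℕ) : ℝ) := max_le hS0' hY'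
  have hm2 : max s0 (2 * (NN K M : ℝ) ^ 2 * (2 * (Sb b l + 2 * Sb b l ^ 2)) * Cg ^ 2) ≤
      ((l * m : ℕ) : ℝ) := max_le hs0' hG'
  have hm3 : 24 * N ^ 2 * Cl * (32 * (M : ℝ) ^ 4) ≤ ((l * m : ℕ) : ℝ) := by
    have := key _ t4 (by linarith only [hAA, hS0, t1, t2, t3])
    refine le_trans ?_ this
    have e1 : Cl ≤ A1 * (C0 + C0 ^ 2) * (l : ℝ) ^ 11 := by
      rw [hCldef]
      have f1 : C0 * l + C0 ^ 2 ≤ (C0 + C0 ^ 2) * l := by nlinarith only [hlR, hC0, sq_nonneg C0]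
      calc cC b l * (C0 * l + C0 ^ 2) ≤ (A1 * (l : ℝ) ^ 10) * ((C0 + C0 ^ 2) * l) :=
            mul_le_mul q1 f1 (by positivity) (by positivity)
        _ = _ := by ring
    have e2 : 0 ≤ 24 * N ^ 2 * (32 * (M : ℝ) ^ 4) := by positivity
    calc 24 * N ^ 2 * Cl * (32 * (M : ℝ) ^ 4) = 24 * N ^ 2 * (32 * (M : ℝ) ^ 4) * Cl := by ring
      _ ≤ 24 * N ^ 2 * (32 * (M : ℝ) ^ 4) * (A1 * (C0 + C0 ^ 2) * (l : ℝ) ^ 11) :=
        mul_le_mul_of_nonneg_left e1 e2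
      _ = _ := by ring
  have hBb : 2 * Real.sqrt (2 * Real.exp b) ≤ A := by
    rw [hA]
    have := Real.sqrt_le_sqrt (mul_le_mul_of_nonneg_left (Real.exp_le_exp.2 hbB)
      (by norm_num : (0 : ℝ) ≤ 2))
    linarith only [this]
  have hyy0' : 0 ≤ yy b (l * m) := yy_nonneg b _
  have hexp : Real.exp (-(Real.pi * stiff l b * Real.log (NN K M)) - (B * C2 / 2 + 1)) ≤
      Real.exp (-(Real.pi * stiff l b * Real.log (NN K M)) - (b * C2 / 2 + 1)) := by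
    rw [Real.exp_le_exp]
    have : b * C2 ≤ B * C2 := mul_le_mul_of_nonneg_right hbB (by linarith only [hC2])
    linarith only [this]
  have hSl : (4 : ℝ) ≤ S0 := hS0
  have hs0 : (0 : ℝ) < ((l * m : ℕ) : ℝ) := by linarith only [hSl, hS0']
  have hs4n : 4 ≤ l * m := by
    have : (4 : ℝ) ≤ ((l * m : ℕ) : ℝ) := hSl.trans hS0'
    exact_mod_cast this
  have hmpos : 1 ≤ m := by
    rcases Nat.eq_zero_or_pos m with h0 | h0
    · rw [h0, mul_zero] at hs4n; omega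
    · exact h0
  have hNNpos : 1 ≤ NN K M := by unfold NN; omega
  -- the small term
  have hε : Real.sqrt ((576 + 96 * C0) * (NN K M : ℝ) ^ 2 *
      (1 / (32 * (M : ℝ) ^ 4 * ((576 + 96 * C0) * N ^ 2))) +
      24 * (NN K M : ℝ) ^ 2 * Cl / ((l * m : ℕ) : ℝ)) ≤ 1 / (4 * (M : ℝ) ^ 2) := by
    rw [← hN]
    have e1 : (576 + 96 * C0) * N ^ 2 * (1 / (32 * (M : ℝ) ^ 4 * ((576 + 96 * C0) * N ^ 2))) =
        1 / (32 * (M : ℝ) ^ 4) := by
      (clear * - hC0 hN1 hM; field_simp)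
    have e2 : 24 * N ^ 2 * Cl / ((l * m : ℕ) : ℝ) ≤ 1 / (32 * (M : ℝ) ^ 4) := by
      rw [div_le_div_iff₀ hs0 (by positivity)]
      linarith only [hm3]
    rw [e1]
    apply Real.sqrt_le_iff.2
    refine ⟨by positivity, ?_⟩
    have e3 : (1 / (4 * (M : ℝ) ^ 2)) ^ 2 = 1 / (32 * (M : ℝ) ^ 4) + 1 / (32 * (M : ℝ) ^ 4) := by
      field_simp; ring
    rw [e3]
    linarith only [e2]
  set F : ℕ × ℕ → Ginf → ℝ := fun p θ => Real.sqrt (Dn b l m K M p.1 p.2 θ) with hF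
  have cF : ∀ p, Continuous (F p) := fun p =>
    Real.continuous_sqrt.comp (Dn_cont b l m K M p.1 p.2)
  have hlow : ∀ p ∈ posn M, Real.sqrt (Real.exp (-(Real.pi * stiff l b *
      Real.log (NN K M)) - (B * C2 / 2 + 1)) * yy b (l * m)) ≤
      Ev b (l * m * NN K M) (ang (l * m * NN K M) 0) (F p) := by
    intro p hp
    obtain ⟨h1, h2⟩ := mem_posn.1 hp
    refine le_trans (Real.sqrt_le_sqrt ((mul_le_mul_of_nonneg_right hexp hyy0').trans
      (hg2 m p.1 p.2 h1 h2 hm2))) ?_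
    exact sqrt_lower hb.le hl hs4n hK3 h1 h2
  have hdiag : ∀ p ∈ posn M, Ev b (l * m * NN K M) (ang (l * m * NN K M) 0)
      (fun θ => F p θ * F p θ) ≤ 1 := by
    intro p hp
    obtain ⟨h1, h2⟩ := mem_posn.1 hp
    have e1 : (fun θ => F p θ * F p θ) = fun θ => Dn b l m K M p.1 p.2 θ := by
      ext θ
      exact Real.mul_self_sqrt (Dn_pos b l m K M p.1 p.2 θ).le
    rw [e1, Ev_Dn_one hl hs4n hK3 h1 h2]
  have hoff : ∀ p ∈ posn M, ∀ q ∈ posn M, p ≠ q →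
      Ev b (l * m * NN K M) (ang (l * m * NN K M) 0) (fun θ => F p θ * F q θ) ≤
      1 / (2 * (M : ℝ) ^ 2) + A * (ρ ^ ((p.1 : ℤ) - q.1).natAbs *
        ρ ^ ((p.2 : ℤ) - q.2).natAbs) := by
    intro p hp q hq hpq
    obtain ⟨h1, h2⟩ := mem_posn.1 hp
    obtain ⟨h3, h4⟩ := mem_posn.1 hq
    obtain ⟨n1, hn1⟩ : ∃ n1, n1 = ((p.1 : ℤ) - q.1).natAbs := ⟨_, rfl⟩
    obtain ⟨n2, hn2⟩ : ∃ n2, n2 = ((p.2 : ℤ) - q.2).natAbs := ⟨_, rfl⟩
    have a1 : (n1 : ℝ) = |(p.1 : ℝ) - q.1| := by rw [hn1]; exact natAbs_cast_abs _ _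
    have a2 : (n2 : ℝ) = |(p.2 : ℝ) - q.2| := by rw [hn2]; exact natAbs_cast_abs _ _
    have hpos : 1 ≤ n1 ∨ 1 ≤ n2 := by
      by_contra hcon
      push Not at hcon
      apply hpq
      ext <;> omega
    rw [← hn1, ← hn2]
    have fin : ∀ ν : ℕ, n1 ≤ ν → n2 ≤ ν →
        Real.exp (-(1 * ((K : ℝ) * ν / 2)) / 48) ≤ ρ ^ n1 * ρ ^ n2 := by
      intro ν b1 b2
      rw [hρ, ← Real.exp_nat_mul, ← Real.exp_nat_mul, ← Real.exp_add, Real.exp_le_exp]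
      have c1 : (n1 : ℝ) ≤ ν := by exact_mod_cast b1
      have c2 : (n2 : ℝ) ≤ ν := by exact_mod_cast b2
      have c3 : (0 : ℝ) ≤ K := Nat.cast_nonneg K
      nlinarith only [c1, c2, c3]
    have comb : ∀ ν : ℕ, n1 ≤ ν → n2 ≤ ν → Ev b (l * m * NN K M) (ang (l * m * NN K M) 0)
        (fun θ => F p θ * F q θ) ≤ 2 * Real.sqrt ((576 + 96 * C0) * (NN K M : ℝ) ^ 2 *
          (1 / (32 * (M : ℝ) ^ 4 * ((576 + 96 * C0) * N ^ 2))) +
          24 * (NN K M : ℝ) ^ 2 * Cl / ((l * m : ℕ) : ℝ)) +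
        2 * Real.sqrt (2 * Real.exp b) * Real.exp (-(1 * ((K : ℝ) * ν / 2)) / 48) →
        Ev b (l * m * NN K M) (ang (l * m * NN K M) 0) (fun θ => F p θ * F q θ) ≤
        1 / (2 * (M : ℝ) ^ 2) + A * (ρ ^ n1 * ρ ^ n2) := by
      intro ν b1 b2 hh'
      refine (hh'.trans (add_le_add le_rfl
        (mul_le_mul_of_nonneg_right hBb (Real.exp_pos _).le))).trans ?_
      have d1 := mul_le_mul_of_nonneg_left (fin ν b1 b2) hA0
      have d2 : 1 / (2 * (M : ℝ) ^ 2) = 2 * (1 / (4 * (M : ℝ) ^ 2)) := by field_simp; ring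
      rw [d2]
      linarith only [hε, d1]
    rcases le_total n1 n2 with h12 | h12
    · refine comb n2 h12 le_rfl ?_
      exact hA2 K M m hK4 hK2 hm1 _ hδ' p.1 p.2 q.1 q.2 h1 h2 h3 h4 hh n2
        (Or.inl ⟨rfl, a2⟩) (by
          have : 1 ≤ n2 := by omega
          exact_mod_cast this)
    · refine comb n1 le_rfl h12 ?_
      exact hA2 K M m hK4 hK2 hm1 _ hδ' p.1 p.2 q.1 q.2 h1 h2 h3 h4 vv n1
        (Or.inr ⟨rfl, a1⟩) (by
          have : 1 ≤ n1 := by (clear * - hn1 hn2 hpos h12; omega)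
          exact_mod_cast this)
  have hrow : ∀ p ∈ posn M, ∑ q ∈ posn M, Ev b (l * m * NN K M) (ang (l * m * NN K M) 0)
      (fun θ => F p θ * F q θ) ≤ 2 := by
    intro p hp
    have := row_sum (M := M) (A := A) (A0 := 1 / (2 * (M : ℝ) ^ 2)) (ρ := ρ) hρ0.le hρ1 hA0
      (by positivity) (H := fun p q => Ev b (l * m * NN K M) (ang (l * m * NN K M) 0)
      (fun θ => F p θ * F q θ)) hdiag hoff hp
    have e1 : (M : ℝ) ^ 2 * (1 / (2 * (M : ℝ) ^ 2)) = 1 / 2 := by field_simp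
    rw [e1] at this
    linarith only [hρ2, this]
  have hfin := cs_vortex F cF (Real.sqrt_nonneg _) hlow hrow hM
  have hyy : WB b (l * m * NN K M) 0 (ang (l * m * NN K M) 0) / WB b (l * m * NN K M) 0 0 =
      yy b (l * m * NN K M) := rfl
  have hyy0 : 0 ≤ yy b (l * m) := div_nonneg (WB_pos b _ 0 _).le (WB_pos b _ 0 0).le
  rw [hyy, Real.sq_sqrt (by (clear * - hyy0; positivity))] at hfin
  linarith only [hfin]

end Vale.Agent.P159.UJ.H831
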