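import Vale.Agent.P159.T1.NC.H831.Win
import Vale.Agent.P159.T1.NC.H831.StepT
import Vale.Agent.P159.T1.NC.H664.YLow

/-!
P159, near-critical regime: if the stiffness at scale `L` is below the critical value `2 / π`, then
it is below `1 / (4 π)` at a scale which is at most a power of `L`. No hypothesis on the phase.
-/

open Filter Topology

namespace Vale.Agent.P159.T1.NC.H831

open Vale.Agent.P159 Vale.Agent.P159.UJ

theorem yy_ge' {b B : ℝ} (hb : 0 ≤ b) (hB : b ≤ B) {s : ℕ} (hs : 1 ≤ s) :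
    Real.exp (-(1280 * B * (1 + Real.log s))) ≤ yy b s := by
  refine le_trans ?_ (H664.yy_ge hb s)
  rw [Real.exp_le_exp]
  have h1 : (1 : ℝ) ≤ s := by exact_mod_cast hs
  have h2 : Real.log (s + 1) ≤ 1 + Real.log s := by
    have h3 : Real.log (s + 1) ≤ Real.log (2 * s) := Real.log_le_log (by linarith) (by linarith)
    rw [Real.log_mul (by norm_num) (by linarith)] at h3
    have h4 : Real.log 2 < 0.6931471808 := Real.log_two_lt_d9
    linarith
  have h5 : 0 ≤ Real.log s := Real.log_nonneg h1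
  have h6 : 640 * b * (1 + Real.log (s + 1)) ≤ 640 * B * (2 * (1 + Real.log s)) :=
    mul_le_mul (by linarith) (by linarith) (by
      have : 0 ≤ Real.log ((s : ℝ) + 1) := Real.log_nonneg (by linarith)
      linarith) (by linarith)
  linarith

/-- **drop of the stiffness** below the critical value, at a power of the scale -/
theorem drop (B d : ℝ) (hd : 0 < d) : ∃ (A : ℝ) (P : ℕ), 1 ≤ A ∧ ∀ b : ℝ, 0 < b → b ≤ B →
    ∀ L : ℕ, 1 ≤ L → stiff L b ≤ 2 / Real.pi - d →
      ∃ l : ℕ, L ∣ l ∧ 1 ≤ l ∧ (l : ℝ) ≤ A * (L : ℝ) ^ P ∧ stiff l b < 1 / (4 * Real.pi) := by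
  have hpi := Real.pi_pos
  by_cases hB : 0 < B
  swap
  · refine ⟨1, 0, le_rfl, fun b h1 h2 => ?_⟩
    exact absurd (h1.trans_le h2) hB
  obtain ⟨C1, K, -, hK, hstep⟩ := UJ.H831.stepT B hB
  obtain ⟨t, ht⟩ : ∃ t : ℝ, t = max 0 (2 / Real.pi - d) := ⟨_, rfl⟩
  have ht0 : 0 ≤ t := by rw [ht]; exact le_max_left _ _
  have ht2 : Real.pi * t < 2 := by
    rcases le_total 0 (2 / Real.pi - d) with h | h
    · rw [ht, max_eq_right h, mul_sub, mul_div_cancel₀ _ hpi.ne']
      have := mul_pos hpi hd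
      linarith
    · rw [ht, max_eq_left h]
      norm_num
  obtain ⟨M, hM, hwin⟩ := entropy_wins (C1 := C1) ht0 ht2 hK
  obtain ⟨δ, A0, hδ, hA0, hs⟩ := hstep M hM
  have hN2 : 2 ≤ NN K M := by
    unfold NN
    have : 1 ≤ K * M := Nat.mul_pos hK hM
    nlinarith
  obtain ⟨A, P, hA, hw⟩ := windows (N := NN K M) (p := 11) (A := A0) (C := 1280 * B) (δ := δ)
    (B := 2 / Real.pi) hN2 hA0 (by linarith) hδ
  refine ⟨A, P, hA, fun b hb hbB L hL hSL => ?_⟩
  have hSLt : stiff L b ≤ t := hSL.trans (by rw [ht]; exact le_max_right _ _)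
  refine hw (fun l => stiff l b) (fun s => yy b s) (1 / (4 * Real.pi)) L ?_
    (fun l hl => stiff_nonneg' hb.le hl) (hSL.trans (by linarith)) (by positivity)
  refine ⟨hL, fun l k hl hk => stiff_mono hb.le hl hk, fun s _ => yy_le_one hb.le s,
    fun s hs => yy_ge' hb.le hbB hs, ?_⟩
  intro l m hLl hl hm hst hsz hflat
  refine le_trans ?_ (hs b hb hbB l m hl hst hsz hflat)
  have hlog : 0 ≤ Real.log (NN K M) := Real.log_natCast_nonneg _
  have hlt : stiff l b ≤ t := by
    obtain ⟨k, rfl⟩ := hLl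
    have hk : 1 ≤ k := by
      rcases Nat.eq_zero_or_pos k with h | h
      · rw [h, mul_zero] at hl; omega
      · exact h
    exact (stiff_mono hb.le hL hk).trans hSLt
  rw [← mul_assoc]
  refine mul_le_mul_of_nonneg_right ?_ (yy_pos b _).le
  refine hwin.trans (mul_le_mul_of_nonneg_left ?_ (by positivity))
  rw [Real.exp_le_exp]
  have := mul_le_mul_of_nonneg_right (mul_le_mul_of_nonneg_left hlt hpi.le) hlog
  linarith

end Vale.Agent.P159.T1.NC.H831
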