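import Vale.Agent.P159.T1.NC.Props
import Vale.Agent.P159.T1.NC.H831.Drop

/-!
P159, near-critical regime: the sum rule for the stiffness over the scales, from the recursion for
the vortex ratio which is uniform in the cell size.
-/

open Filter Topology
open scoped BigOperators

namespace Vale.Agent.P159.T1.NC.H831

open Vale.Agent.P159 Vale.Agent.P159.UJ Vale.Agent.P159.NC

/-- the sum of the drops over windows of length `q` -/
theorem sum_drop {s : ℕ → ℝ} {B : ℝ} (h0 : ∀ j, 0 ≤ s j) (hB : ∀ j, s j ≤ B) (q J : ℕ) :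
    ∑ j ∈ Finset.range J, (s j - s (q + j)) ≤ q * B := by
  rw [Finset.sum_sub_distrib]
  have h1 : ∑ j ∈ Finset.range (q + J), s j =
      ∑ j ∈ Finset.range q, s j + ∑ j ∈ Finset.range J, s (q + j) := Finset.sum_range_add _ _ _
  have h2 : ∑ j ∈ Finset.range (J + q), s j =
      ∑ j ∈ Finset.range J, s j + ∑ j ∈ Finset.range q, s (J + j) := Finset.sum_range_add _ _ _
  rw [add_comm J q] at h2
  have h3 : 0 ≤ ∑ j ∈ Finset.range q, s (J + j) := Finset.sum_nonneg fun j _ => h0 _
  have h4 : ∑ j ∈ Finset.range q, s j ≤ q * B := by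
    have := Finset.sum_le_card_nsmul (Finset.range q) s B (fun j _ => hB j)
    simpa using this
  linarith

/-- the recursion, summed over the scales -/
theorem sum_core {s w : ℕ → ℝ} {B C1 δ H D LN : ℝ} {r J : ℕ} (h0 : ∀ j, 0 ≤ s j)
    (hB : ∀ j, s j ≤ B) (hanti : ∀ j, s (r + 1 + j) ≤ s j) (hδ : 0 < δ) (hH : 1 ≤ H)
    (hw0 : ∀ j, 0 < w j) (hw1 : ∀ j, w j ≤ 1) (hD : -D ≤ Real.log (w r))
    (hc : ∀ j < J, Real.exp (-(Real.pi * s j * LN) - C1) * w (j + r) ≤ w (j + r + 1))
    (hf : ∀ j < J, s j - s (r + 1 + j) ≤ δ →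
      H * (Real.exp (-(Real.pi * s j * LN) - C1) * w (j + r)) ≤ w (j + r + 1)) :
    J * Real.log H ≤ Real.pi * LN * ∑ j ∈ Finset.range J, s j + J * C1 + D +
      (r + 1) * B / δ * Real.log H := by
  have hlH : 0 ≤ Real.log H := Real.log_nonneg hH
  have hstep : ∀ j < J, Real.log H - (s j - s (r + 1 + j)) / δ * Real.log H -
      Real.pi * s j * LN - C1 ≤ Real.log (w (j + r + 1)) - Real.log (w (j + r)) := by
    intro j hj
    by_cases hb : s j - s (r + 1 + j) ≤ δ
    · have e1 := Real.log_le_log (by have := hw0 (j + r); positivity) (hf j hj hb)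
      rw [Real.log_mul (by positivity) (by have := hw0 (j + r); positivity),
        Real.log_mul (Real.exp_pos _).ne' (hw0 _).ne', Real.log_exp] at e1
      have e2 : 0 ≤ (s j - s (r + 1 + j)) / δ * Real.log H :=
        mul_nonneg (div_nonneg (by linarith [hanti j]) hδ.le) hlH
      linarith
    · push Not at hb
      have e1 := Real.log_le_log (by have := hw0 (j + r); positivity) (hc j hj)
      rw [Real.log_mul (Real.exp_pos _).ne' (hw0 _).ne', Real.log_exp] at e1
      have e2 : 1 * Real.log H ≤ (s j - s (r + 1 + j)) / δ * Real.log H :=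
        mul_le_mul_of_nonneg_right (by rw [le_div_iff₀ hδ]; linarith) hlH
      linarith
  have hsum := Finset.sum_le_sum (s := Finset.range J)
    (fun j hj => hstep j (Finset.mem_range.1 hj))
  have htel : ∑ j ∈ Finset.range J, (Real.log (w (j + r + 1)) - Real.log (w (j + r))) =
      Real.log (w (J + r)) - Real.log (w r) := by
    have := Finset.sum_range_sub (fun j => Real.log (w (j + r))) J
    simp only [zero_add] at this
    rw [← this]
    refine Finset.sum_congr rfl fun j _ => ?_
    rw [add_right_comm]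
  rw [htel] at hsum
  have hlast : Real.log (w (J + r)) ≤ 0 := Real.log_nonpos (hw0 _).le (hw1 _)
  have hdrop := sum_drop h0 hB (r + 1) J
  have hd2 : ∑ j ∈ Finset.range J, (s j - s (r + 1 + j)) / δ * Real.log H ≤
      (r + 1) * B / δ * Real.log H := by
    rw [← Finset.sum_mul, ← Finset.sum_div]
    refine mul_le_mul_of_nonneg_right (div_le_div_of_nonneg_right ?_ hδ.le) hlH
    push_cast at hdrop
    exact hdrop
  have hexp : ∑ j ∈ Finset.range J, (Real.log H - (s j - s (r + 1 + j)) / δ * Real.log H -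
      Real.pi * s j * LN - C1) = J * Real.log H -
      ∑ j ∈ Finset.range J, (s j - s (r + 1 + j)) / δ * Real.log H -
      Real.pi * LN * ∑ j ∈ Finset.range J, s j - J * C1 := by
    rw [Finset.sum_sub_distrib, Finset.sum_sub_distrib, Finset.sum_sub_distrib]
    simp only [Finset.sum_const, Finset.card_range, nsmul_eq_mul]
    congr 2
    rw [Finset.mul_sum]
    refine Finset.sum_congr rfl fun j _ => ?_
    ring
  rw [hexp] at hsum
  linarith

/-- **the sum rule**, from the uniform recursion -/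
theorem sumRule_of (hS : StepU) : SumRule := by
  intro B t0 ε hB ht0 hε
  have hpi := Real.pi_pos
  obtain ⟨C1, K, hC1, hK, hstep⟩ := hS B t0 hB ht0
  have hK1 : (1 : ℝ) ≤ K := by exact_mod_cast hK
  -- the number of vortex positions
  obtain ⟨M0, hM0⟩ := exists_nat_ge
    (Real.exp ((2 * Real.log (9 * K) + Real.log 2 + C1) / ε))
  obtain ⟨M, hMdef⟩ : ∃ M : ℕ, M = max 2 M0 := ⟨_, rfl⟩
  have hM2 : 2 ≤ M := by rw [hMdef]; exact le_max_left _ _
  have hM2r : (2 : ℝ) ≤ M := by exact_mod_cast hM2
  have hM0' : (M0 : ℝ) ≤ M := by rw [hMdef]; exact_mod_cast le_max_right _ _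
  have hlM : 2 * Real.log (9 * K) + Real.log 2 + C1 ≤ ε * Real.log M := by
    have h1 := Real.log_le_log (Real.exp_pos _) (hM0.trans hM0')
    rw [Real.log_exp, div_le_iff₀ hε] at h1
    linarith
  obtain ⟨δ, m0, hδ, hm0, hs⟩ := hstep M (by omega)
  obtain ⟨N, hN⟩ : ∃ N : ℕ, N = NN K M := ⟨_, rfl⟩
  have hN2 : 2 ≤ N := by
    rw [hN]
    unfold NN
    have : 1 ≤ K * M := Nat.mul_pos hK (by omega)
    nlinarith
  have hNM : (M : ℝ) ≤ N := by
    have h1 : M ≤ N := by
      rw [hN]
      unfold NN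
      have : M ≤ K * M := Nat.le_mul_of_pos_left _ hK
      nlinarith
    exact_mod_cast h1
  have hN9 : (N : ℝ) ≤ 9 * K * M := by
    have h1 : N ≤ 9 * K * M := by
      rw [hN]
      unfold NN
      have : 1 ≤ K * M := Nat.mul_pos hK (by omega)
      nlinarith
    exact_mod_cast h1
  have hNr : (2 : ℝ) ≤ N := by exact_mod_cast hN2
  have hlN : 0 < Real.log N := Real.log_pos (by linarith)
  have hlogN : Real.log N ≤ Real.log (9 * K) + Real.log M := by
    rw [← Real.log_mul (by positivity) (by positivity)]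
    exact Real.log_le_log (by linarith) hN9
  obtain ⟨H, hH⟩ : ∃ H : ℝ, H = (M : ℝ) ^ 2 / 2 := ⟨_, rfl⟩
  have hH1 : 1 ≤ H := by rw [hH]; nlinarith
  have hlH : Real.log H = 2 * Real.log M - Real.log 2 := by
    rw [hH, Real.log_div (by positivity) (by norm_num), Real.log_pow]
    norm_num
  have hmain : 2 * Real.log N - Real.log H + C1 ≤ ε * Real.log N := by
    have h1 : Real.log M ≤ Real.log N := Real.log_le_log (by linarith) hNM
    have h2 := mul_le_mul_of_nonneg_left h1 hε.le
    linarith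
  have hlH0 : 0 ≤ Real.log H := Real.log_nonneg hH1
  -- the constant
  obtain ⟨r, hr⟩ : ∃ r : ℕ, r = m0 := ⟨_, rfl⟩
  have hNp : 1 ≤ N := by omega
  have hrm : m0 ≤ N ^ r := by rw [hr]; exact (Nat.lt_pow_self (by omega)).le
  have hr0 : (0 : ℝ) ≤ r := Nat.cast_nonneg _
  refine ⟨N, 1280 * B * (1 + r * Real.log N) + 1280 * B + (r + 1) * B / δ * Real.log H,
    hN2, by positivity, ?_⟩
  intro b hb hbB l hl J ht
  have hlr : (1 : ℝ) ≤ l := by exact_mod_cast hl
  have hll : 0 ≤ Real.log l := Real.log_nonneg hlr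
  have hNpow : ∀ j : ℕ, 1 ≤ N ^ j := fun j => Nat.one_le_pow _ _ hNp
  have hlj : ∀ j : ℕ, 1 ≤ l * N ^ j := fun j => Nat.mul_pos hl (hNpow j)
  have hmono : ∀ j k : ℕ, stiff (l * N ^ (k + j)) b ≤ stiff (l * N ^ j) b := by
    intro j k
    have e1 : l * N ^ (k + j) = l * N ^ j * N ^ k := by rw [pow_add]; ring
    rw [e1]
    exact stiff_mono hb.le (hlj j) (hNpow k)
  have hcore := sum_core (s := fun j => stiff (l * N ^ j) b) (w := fun j => yy b (l * N ^ j))
    (B := B) (C1 := C1) (δ := δ) (H := H) (D := 1280 * B * (1 + Real.log ((l * N ^ r : ℕ) : ℝ)))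
    (LN := Real.log N) (r := r) (J := J) (fun j => stiff_nonneg' hb.le (hlj j))
    (fun j => (h3_stiff_le hb (hlj j)).trans hbB) (fun j => hmono j (r + 1)) hδ hH1
    (fun j => yy_pos b _) (fun j => yy_le_one hb.le _) ?_ ?_ ?_
  · -- conclusion
    have e1 : ∑ j ∈ Finset.range J, (2 - Real.pi * stiff (l * N ^ j) b) * Real.log N =
        J * (2 * Real.log N) - Real.pi * Real.log N *
          ∑ j ∈ Finset.range J, stiff (l * N ^ j) b := by
      rw [Finset.mul_sum]
      rw [show (J : ℝ) * (2 * Real.log N) = ∑ _j ∈ Finset.range J, 2 * Real.log N by simp]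
      rw [← Finset.sum_sub_distrib]
      refine Finset.sum_congr rfl fun j _ => ?_
      ring
    have e2 : Real.log ((l * N ^ r : ℕ) : ℝ) = Real.log l + r * Real.log N := by
      push_cast
      rw [Real.log_mul (by linarith) (by positivity), Real.log_pow]
    rw [e2] at hcore
    rw [e1]
    have e3 : (J : ℝ) * (2 * Real.log N - Real.log H + C1) ≤ J * (ε * Real.log N) :=
      mul_le_mul_of_nonneg_left hmain (Nat.cast_nonneg _)
    have e4 : 0 ≤ (1280 * B * (1 + r * Real.log N) + (r + 1) * B / δ * Real.log H) * Real.log l := by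
      positivity
    have e5 : (1280 * B * (1 + r * Real.log N) + 1280 * B + (r + 1) * B / δ * Real.log H) *
        (1 + Real.log l) = 1280 * B * (1 + (Real.log l + r * Real.log N)) + 1280 * B +
        (r + 1) * B / δ * Real.log H +
        (1280 * B * (1 + r * Real.log N) + (r + 1) * B / δ * Real.log H) * Real.log l := by
      ring
    rw [e5]
    have hB0 : 0 ≤ 1280 * B := by linarith
    linarith
  · -- the lower bound for the vortex ratio
    have e1 := yy_ge' hb.le hbB (hlj r)
    have e2 := Real.log_le_log (Real.exp_pos _) e1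
    rw [Real.log_exp] at e2
    exact e2
  · intro j hj
    have e1 := (hs b hb hbB (l * N ^ j) (N ^ r) (hlj j) hrm (ht j hj)).1
    rw [← hN] at e1
    have e2 : l * N ^ j * N ^ r = l * N ^ (j + r) := by rw [pow_add]; ring
    have e3 : l * N ^ (j + r) * N = l * N ^ (j + r + 1) := by rw [pow_succ]; ring
    rw [e2, e3] at e1
    exact e1
  · intro j hj hflat
    have e1 := (hs b hb hbB (l * N ^ j) (N ^ r) (hlj j) hrm (ht j hj)).2
    rw [← hN] at e1
    have e2 : l * N ^ j * N ^ r = l * N ^ (j + r) := by rw [pow_add]; ring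
    have e3 : l * N ^ (j + r) * N = l * N ^ (j + r + 1) := by rw [pow_succ]; ring
    have e4 : r + 1 + j = j + r + 1 := by ring
    rw [e2, e3] at e1
    rw [e4] at hflat
    have e5 := e1 hflat
    rw [hH]
    exact e5

end Vale.Agent.P159.T1.NC.H831
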