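import Vale.Agent.P159.T1.NC.Props
import Vale.Agent.P159.T1.NC.H664.UProps
import Vale.Agent.P159.T1.NC.H831.GProps

/-!
P159, near-critical regime, second version: one step of the recursion for the vortex ratio, with
constants uniform in the size `l` of the cells, from the uniform estimates of the affinities (`AffU`)
and of the energies (`GLowU`).
-/

set_option linter.all false

open MeasureTheory Filter Topology
open scoped BigOperators

namespace Vale.Agent.P159.UJ.H831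

open Vale.Agent.P159 Vale.Agent.P159.UJ Vale.Agent.P159.UJ.H664 Vale.Agent.P159.NC
open Vale.Agent.P159.T1.NC.H831 (GLowU)

/-- one vortex position, no flatness -/
theorem one_vortex {b CG : ℝ} {l m K M : ℕ} (hb : 0 < b) (hl : 1 ≤ l) (hm : 4 ≤ m) (hK : 1 ≤ K)
    (hM : 1 ≤ M) (hg : Real.exp (-(Real.pi * stiff l b * Real.log (NN K M)) - CG) * yy b (l * m) ≤
      (∏ k ∈ outer m K M 0 0, WB b l (cor l k) (alp l m K M 0 0) / WB b l (cor l k) 0) *
      (WB b (l * m) (cnr l m K M 0 0) (alp l m K M 0 0) / WB b (l * m) (cnr l m K M 0 0) 0)) :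
    Real.exp (-(Real.pi * stiff l b * Real.log (NN K M)) - CG) * yy b (l * m) ≤
      yy b (l * m * NN K M) := by
  have hM0 : 0 < M := hM
  have hs4 : 4 ≤ l * m := by nlinarith
  have h1 := (Real.sqrt_le_sqrt hg).trans (sqrt_lower hb.le hl hs4 hK hM0 hM0)
  have hyy : Ev b (l * m * NN K M) (ang (l * m * NN K M) 0) (fun _ => 1) =
      yy b (l * m * NN K M) := Ev_one _ _ _
  have hcs := Ev_cs (b := b) (L := l * m * NN K M) (v := ang (l * m * NN K M) 0)
    (F := fun θ => Real.sqrt (Dn b l m K M 0 0 θ)) (G := fun _ => (1 : ℝ))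
    (Real.continuous_sqrt.comp (Dn_cont b l m K M 0 0)) continuous_const
  simp only [mul_one, one_pow] at hcs
  have e1 : (fun x => Real.sqrt (Dn b l m K M 0 0 x) ^ 2) = fun x => Dn b l m K M 0 0 x := by
    ext x
    exact Real.sq_sqrt (Dn_pos b l m K M 0 0 x).le
  rw [e1, Ev_Dn_one hl hs4 hK hM0 hM0, hyy, one_mul] at hcs
  have h2 : 0 ≤ Real.exp (-(Real.pi * stiff l b * Real.log (NN K M)) - CG) * yy b (l * m) :=
    mul_nonneg (Real.exp_pos _).le (yy_nonneg b _)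
  have h3 := pow_le_pow_left₀ (Real.sqrt_nonneg _) h1 2
  rw [Real.sq_sqrt h2] at h3
  exact h3.trans hcs

/-- **one step of the recursion, uniform in the size of the cells** -/
theorem stepU_of (hA : ∀ B t0 : ℝ, 0 < B → 0 < t0 → AffU B t0)
    (hG : ∀ B : ℝ, 0 < B → GLowU B) : StepU := by
  intro B t0 hB ht0
  obtain ⟨C0, CU, hC0, hCU, haff⟩ := hA B t0 hB ht0
  obtain ⟨CG, hCG, hg⟩ := hG B hB
  have hpi := Real.pi_pos
  -- choice of K
  obtain ⟨A, hA⟩ : ∃ A : ℝ, A = 2 * Real.sqrt (2 * Real.exp B) := ⟨_, rfl⟩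
  have hA0 : 0 ≤ A := by rw [hA]; positivity
  have htend : Tendsto (fun K : ℕ => Real.exp (-(Real.pi * t0 * K / 48))) atTop (𝓝 0) := by
    have h1 : Tendsto (fun K : ℕ => Real.pi * t0 * (K : ℝ) / 48) atTop atTop :=
      (tendsto_natCast_atTop_atTop.const_mul_atTop (by positivity)).atTop_div_const (by norm_num)
    exact Real.tendsto_exp_neg_atTop_nhds_zero.comp h1
  have hev1 : ∀ᶠ K : ℕ in atTop, Real.exp (-(Real.pi * t0 * K / 48)) <
      min (1 / 10) (1 / (10 * A + 1)) :=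
    htend.eventually (eventually_lt_nhds (by (clear * - hA0; positivity)))
  have hev2 : ∀ᶠ K : ℕ in atTop, C0 ≤ Real.pi * K := by
    have h1 : Tendsto (fun K : ℕ => Real.pi * (K : ℝ)) atTop atTop :=
      tendsto_natCast_atTop_atTop.const_mul_atTop hpi
    exact h1.eventually (eventually_ge_atTop C0)
  have hev3 : ∀ᶠ K : ℕ in atTop, 1 ≤ 2 * Real.pi * t0 * K := by
    have h1 : Tendsto (fun K : ℕ => 2 * Real.pi * t0 * (K : ℝ)) atTop atTop :=
      tendsto_natCast_atTop_atTop.const_mul_atTop (by positivity)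
    exact h1.eventually (eventually_ge_atTop 1)
  obtain ⟨K, hK1, hK2, hK5, hK3⟩ :=
    (hev1.and (hev2.and (hev3.and (eventually_ge_atTop 1)))).exists
  obtain ⟨ρ, hρ⟩ : ∃ ρ, ρ = Real.exp (-(Real.pi * t0 * K / 48)) := ⟨_, rfl⟩
  rw [← hρ] at hK1
  have hρ0 : 0 < ρ := by rw [hρ]; exact Real.exp_pos _
  have hρ1 : ρ ≤ 1 / 10 := (hK1.le).trans (min_le_left _ _)
  have hρ2 : 5 * A * ρ ≤ 1 / 2 := by
    have h1 : ρ ≤ 1 / (10 * A + 1) := (hK1.le).trans (min_le_right _ _)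
    rw [le_div_iff₀ (by (clear * - hA0; positivity))] at h1
    nlinarith only [hρ0, h1]
  refine ⟨CG, K, hCG, hK3, ?_⟩
  intro M hM
  have hMR : (0 : ℝ) < M := by exact_mod_cast hM
  obtain ⟨N, hN⟩ : ∃ N : ℝ, N = (NN K M : ℝ) := ⟨_, rfl⟩
  have hN1 : 1 ≤ N := by
    rw [hN]
    have : 1 ≤ NN K M := by unfold NN; omega
    exact_mod_cast this
  have hc : 0 < (576 + 96 * C0) * N ^ 2 := by (clear * - hC0 hN1; positivity)
  obtain ⟨mG, hmG, hg⟩ := hg K M hK3 hM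
  obtain ⟨m1, hm1⟩ := exists_nat_ge (CU * N ^ 2 * (32 * (M : ℝ) ^ 4))
  obtain ⟨m2, hm2⟩ := exists_nat_ge CU
  refine ⟨1 / (32 * (M : ℝ) ^ 4 * ((576 + 96 * C0) * N ^ 2)), max mG (max m1 m2),
    by (clear * - hM hC0 hN1; positivity), le_trans (by omega) (le_max_left mG _), ?_⟩
  intro b hb hbB l m hl hm hst
  have hmG' : mG ≤ m := (le_max_left _ _).trans hm
  have hm1' : (m1 : ℝ) ≤ m := by
    exact_mod_cast ((le_max_left m1 m2).trans (le_max_right _ _)).trans hm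
  have hm2' : (m2 : ℝ) ≤ m := by
    exact_mod_cast ((le_max_right m1 m2).trans (le_max_right _ _)).trans hm
  have hm4 : 4 ≤ m := hmG.trans hmG'
  have hs4n : 4 ≤ l * m := by nlinarith
  have hM0 : 0 < M := hM
  have hg' := fun i j hi hj => hg b hb hbB l m hl hmG' i j hi hj
  refine ⟨one_vortex hb hl hm4 hK3 hM (hg' 0 0 hM0 hM0), fun hδ' => ?_⟩
  have hmR : (0 : ℝ) < m := by
    have : 0 < m := by omega
    exact_mod_cast this
  have hBb : 2 * Real.sqrt (2 * Real.exp b) ≤ A := by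
    rw [hA]
    have := Real.sqrt_le_sqrt (mul_le_mul_of_nonneg_left (Real.exp_le_exp.2 hbB)
      (by norm_num : (0 : ℝ) ≤ 2))
    linarith only [this]
  have hyy0' : 0 ≤ yy b (l * m) := yy_nonneg b _
  -- the small term
  have hε : Real.sqrt ((576 + 96 * C0) * (NN K M : ℝ) ^ 2 *
      (1 / (32 * (M : ℝ) ^ 4 * ((576 + 96 * C0) * N ^ 2))) +
      CU * (NN K M : ℝ) ^ 2 / m) ≤ 1 / (4 * (M : ℝ) ^ 2) := by
    rw [← hN]
    have e1 : (576 + 96 * C0) * N ^ 2 * (1 / (32 * (M : ℝ) ^ 4 * ((576 + 96 * C0) * N ^ 2))) =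
        1 / (32 * (M : ℝ) ^ 4) := by
      (clear * - hC0 hN1 hM; field_simp)
    have e2 : CU * N ^ 2 / m ≤ 1 / (32 * (M : ℝ) ^ 4) := by
      rw [div_le_div_iff₀ hmR (by positivity)]
      linarith only [hm1, hm1']
    rw [e1]
    apply Real.sqrt_le_iff.2
    refine ⟨by positivity, ?_⟩
    have e3 : (1 / (4 * (M : ℝ) ^ 2)) ^ 2 = 1 / (32 * (M : ℝ) ^ 4) + 1 / (32 * (M : ℝ) ^ 4) := by
      field_simp; ring
    rw [e3]
    linarith only [e2]
  set F : ℕ × ℕ → Ginf → ℝ := fun p θ => Real.sqrt (Dn b l m K M p.1 p.2 θ) with hF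
  have cF : ∀ p, Continuous (F p) := fun p =>
    Real.continuous_sqrt.comp (Dn_cont b l m K M p.1 p.2)
  have hlow : ∀ p ∈ posn M, Real.sqrt (Real.exp (-(Real.pi * stiff l b *
      Real.log (NN K M)) - CG) * yy b (l * m)) ≤
      Ev b (l * m * NN K M) (ang (l * m * NN K M) 0) (F p) := by
    intro p hp
    obtain ⟨h1, h2⟩ := mem_posn.1 hp
    refine le_trans (Real.sqrt_le_sqrt (hg' p.1 p.2 h1 h2)) ?_
    exact sqrt_lower hb.le hl hs4n hK3 h1 h2
  have hdiag : ∀ p ∈ posn M, Ev b (l * m * NN K M) (ang (l * m * NN K M) 0)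
      (fun θ => F p θ * F p θ) ≤ 1 := by
    intro p hp
    obtain ⟨h1, h2⟩ := mem_posn.1 hp
    have e1 : (fun θ => F p θ * F p θ) = fun θ => Dn b l m K M p.1 p.2 θ := by
      ext θ
      exact Real.mul_self_sqrt (Dn_pos b l m K M p.1 p.2 θ).le
    rw [e1, Ev_Dn_one hl hs4n hK3 h1 h2]
  have hoff : ∀ p ∈ posn M, ∀ q ∈ posn M, p ≠ q →
      Ev b (l * m * NN K M) (ang (l * m * NN K M) 0) (fun θ => F p θ * F q θ) ≤
      1 / (2 * (M : ℝ) ^ 2) + A * (ρ ^ ((p.1 : ℤ) - q.1).natAbs *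
        ρ ^ ((p.2 : ℤ) - q.2).natAbs) := by
    intro p hp q hq hpq
    obtain ⟨h1, h2⟩ := mem_posn.1 hp
    obtain ⟨h3, h4⟩ := mem_posn.1 hq
    obtain ⟨n1, hn1⟩ : ∃ n1, n1 = ((p.1 : ℤ) - q.1).natAbs := ⟨_, rfl⟩
    obtain ⟨n2, hn2⟩ : ∃ n2, n2 = ((p.2 : ℤ) - q.2).natAbs := ⟨_, rfl⟩
    have a1 : (n1 : ℝ) = |(p.1 : ℝ) - q.1| := by rw [hn1]; exact natAbs_cast_abs _ _
    have a2 : (n2 : ℝ) = |(p.2 : ℝ) - q.2| := by rw [hn2]; exact natAbs_cast_abs _ _
    have hpos : 1 ≤ n1 ∨ 1 ≤ n2 := by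
      by_contra hcon
      push Not at hcon
      apply hpq
      ext <;> omega
    rw [← hn1, ← hn2]
    have fin : ∀ ν : ℕ, n1 ≤ ν → n2 ≤ ν →
        Real.exp (-(2 * Real.pi * t0 * K * (ν : ℝ)) / 48) ≤ ρ ^ n1 * ρ ^ n2 := by
      intro ν b1 b2
      rw [hρ, ← Real.exp_nat_mul, ← Real.exp_nat_mul, ← Real.exp_add, Real.exp_le_exp]
      have c1 : (n1 : ℝ) ≤ ν := by exact_mod_cast b1
      have c2 : (n2 : ℝ) ≤ ν := by exact_mod_cast b2
      have c3 : (0 : ℝ) ≤ Real.pi * t0 * K := by positivity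
      have c4 := mul_le_mul_of_nonneg_left c1 c3
      have c5 := mul_le_mul_of_nonneg_left c2 c3
      linarith only [c4, c5]
    have comb : ∀ ν : ℕ, n1 ≤ ν → n2 ≤ ν → Ev b (l * m * NN K M) (ang (l * m * NN K M) 0)
        (fun θ => F p θ * F q θ) ≤ 2 * Real.sqrt ((576 + 96 * C0) * (NN K M : ℝ) ^ 2 *
          (1 / (32 * (M : ℝ) ^ 4 * ((576 + 96 * C0) * N ^ 2))) +
          CU * (NN K M : ℝ) ^ 2 / m) +
        2 * Real.sqrt (2 * Real.exp b) * Real.exp (-(2 * Real.pi * t0 * K * (ν : ℝ)) / 48) →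
        Ev b (l * m * NN K M) (ang (l * m * NN K M) 0) (fun θ => F p θ * F q θ) ≤
        1 / (2 * (M : ℝ) ^ 2) + A * (ρ ^ n1 * ρ ^ n2) := by
      intro ν b1 b2 hh'
      refine (hh'.trans (add_le_add le_rfl
        (mul_le_mul_of_nonneg_right hBb (Real.exp_pos _).le))).trans ?_
      have d1 := mul_le_mul_of_nonneg_left (fin ν b1 b2) hA0
      have d2 : 1 / (2 * (M : ℝ) ^ 2) = 2 * (1 / (4 * (M : ℝ) ^ 2)) := by field_simp; ring
      rw [d2]
      linarith only [hε, d1]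
    rcases le_total n1 n2 with h12 | h12
    · refine comb n2 h12 le_rfl ?_
      exact haff b hb hbB l hl hst K M m hK3 hK2 hK5 (hm2.trans hm2') _ hδ' p.1 p.2 q.1 q.2
        h1 h2 h3 h4 hh n2 (Or.inl ⟨rfl, a2⟩) (by
          have : 1 ≤ n2 := by omega
          exact_mod_cast this)
    · refine comb n1 le_rfl h12 ?_
      exact haff b hb hbB l hl hst K M m hK3 hK2 hK5 (hm2.trans hm2') _ hδ' p.1 p.2 q.1 q.2
        h1 h2 h3 h4 vv n1 (Or.inr ⟨rfl, a1⟩) (by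
          have : 1 ≤ n1 := by (clear * - hn1 hn2 hpos h12; omega)
          exact_mod_cast this)
  have hrow : ∀ p ∈ posn M, ∑ q ∈ posn M, Ev b (l * m * NN K M) (ang (l * m * NN K M) 0)
      (fun θ => F p θ * F q θ) ≤ 2 := by
    intro p hp
    have := row_sum (M := M) (A := A) (A0 := 1 / (2 * (M : ℝ) ^ 2)) (ρ := ρ) hρ0.le hρ1 hA0
      (by positivity) (H := fun p q => Ev b (l * m * NN K M) (ang (l * m * NN K M) 0)
      (fun θ => F p θ * F q θ)) hdiag hoff hp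
    have e1 : (M : ℝ) ^ 2 * (1 / (2 * (M : ℝ) ^ 2)) = 1 / 2 := by field_simp
    rw [e1] at this
    linarith only [hρ2, this]
  have hfin := cs_vortex F cF (Real.sqrt_nonneg _) hlow hrow hM
  have hyy : WB b (l * m * NN K M) 0 (ang (l * m * NN K M) 0) / WB b (l * m * NN K M) 0 0 =
      yy b (l * m * NN K M) := rfl
  rw [hyy, Real.sq_sqrt (by (clear * - hyy0'; positivity))] at hfin
  linarith only [hfin]

end Vale.Agent.P159.UJ.H831
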