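import Vale.Agent.P159.T1.NC.H831.Drop

/-!
P159, near-critical regime: quantitative universal jump. If the stiffness at scale `L` is below the
critical value, the correlation length is at most a power of `L`.
-/

namespace Vale.Agent.P159.T1.NC.H831

open Vale.Agent.P159 Vale.Agent.P159.UJ

/-- the end game (helper731): small stiffness at one scale bounds the correlation length -/
def EndQ : Prop :=
  ∀ b0 B c : ℝ, 0 < b0 → 0 < c → ∃ (A : ℝ) (p : ℕ), 1 ≤ A ∧ ∀ b : ℝ, b0 ≤ b → b ≤ B →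
    ∀ l : ℕ, 1 ≤ l → stiff l b ≤ 1 / (2 * Real.pi) - c →
      0 < mass b ∧ corrLength b ≤ A * (l : ℝ) ^ p

/-- **finite size criterion** -/
theorem fsc_of (hE : EndQ) (b0 B d : ℝ) (hb0 : 0 < b0) (hd : 0 < d) :
    ∃ (A : ℝ) (P : ℕ), 1 ≤ A ∧ ∀ b : ℝ, b0 ≤ b → b ≤ B → ∀ L : ℕ, 1 ≤ L →
      stiff L b ≤ 2 / Real.pi - d → 0 < mass b ∧ corrLength b ≤ A * (L : ℝ) ^ P := by
  have hpi := Real.pi_pos
  obtain ⟨A1, P1, hA1, h1⟩ := drop B d hd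
  obtain ⟨A2, P2, hA2, h2⟩ := hE b0 B (1 / (4 * Real.pi)) hb0 (by positivity)
  have hA : 1 ≤ A2 * A1 ^ P2 := by
    have := one_le_pow₀ (n := P2) hA1
    nlinarith
  refine ⟨A2 * A1 ^ P2, P1 * P2, hA, fun b hbl hbB L hL hS => ?_⟩
  obtain ⟨l, hLl, hl, hsz, hSl⟩ := h1 b (lt_of_lt_of_le hb0 hbl) hbB L hL hS
  have e1 : 1 / (2 * Real.pi) - 1 / (4 * Real.pi) = 1 / (4 * Real.pi) := by
    field_simp; norm_num
  obtain ⟨h3, h4⟩ := h2 b hbl hbB l hl (by rw [e1]; exact hSl.le)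
  refine ⟨h3, h4.trans ?_⟩
  have h5 : (l : ℝ) ^ P2 ≤ (A1 * (L : ℝ) ^ P1) ^ P2 :=
    pow_le_pow_left₀ (Nat.cast_nonneg _) hsz _
  rw [mul_pow, ← pow_mul] at h5
  calc A2 * (l : ℝ) ^ P2 ≤ A2 * (A1 ^ P2 * (L : ℝ) ^ (P1 * P2)) :=
        mul_le_mul_of_nonneg_left h5 (by linarith)
    _ = _ := by ring

end Vale.Agent.P159.T1.NC.H831
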