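import Vale.Agent.P159.T1.NC.H831.Fsc
import Vale.Agent.P159.T1.NC.H731.EndQ
import Vale.Agent.P159.H170.Final

/-!
P159, near-critical regime: the quantitative universal jump, for all `b > 0`.
-/

namespace Vale.Agent.P159.T1.NC.H831

open Vale.Agent.P159 Vale.Agent.P159.UJ

theorem endQ' : EndQ := NC.H731.endQ

/-- high temperature (helper770) -/
def SmallB : Prop := ∃ b0 C : ℝ, 0 < b0 ∧ ∀ b : ℝ, 0 < b → b ≤ b0 → 0 < mass b ∧ corrLength b ≤ C

/-- **finite size criterion for all `b > 0`** -/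
theorem fsc_all (hsm : SmallB) (d : ℝ) (hd : 0 < d) :
    ∃ (A : ℝ) (P : ℕ), 1 ≤ A ∧ ∀ b : ℝ, 0 < b → ∀ L : ℕ, 1 ≤ L →
      stiff L b ≤ 2 / Real.pi - d → 0 < mass b ∧ corrLength b ≤ A * (L : ℝ) ^ P := by
  obtain ⟨b0, C, hb0, hsm⟩ := hsm
  obtain ⟨A, P, hA, h⟩ := fsc_of endQ' b0 (7 / 2) d hb0 hd
  refine ⟨max A C, P, hA.trans (le_max_left _ _), fun b hb L hL hS => ?_⟩
  have hL1 : (1 : ℝ) ≤ L := by exact_mod_cast hL
  have hLP : (1 : ℝ) ≤ (L : ℝ) ^ P := one_le_pow₀ hL1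
  have hA0 : 0 ≤ max A C := by
    have := le_max_left A C
    linarith
  rcases le_total b b0 with hbb | hbb
  · obtain ⟨h1, h2⟩ := hsm b hb hbb
    refine ⟨h1, h2.trans ((le_max_right A C).trans ?_)⟩
    exact le_mul_of_one_le_right hA0 hLP
  · have hlt : b < bCrit := by
      by_contra hcon
      push Not at hcon
      have h1 := UJ.jump hb ((H170.mass_iff hb).2 hcon) hL
      linarith
    obtain ⟨h1, h2⟩ := h b hbb (hlt.le.trans H170.bCrit_le) L hL hS
    exact ⟨h1, h2.trans (mul_le_mul_of_nonneg_right (le_max_left _ _) (by positivity))⟩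

end Vale.Agent.P159.T1.NC.H831
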