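import Vale.Agent.P159.T1.NC.H172.AffUAll
import Vale.Agent.P159.T1.NC.H664.GLow
import Vale.Agent.P159.T1.NC.H831.StepU
import Vale.Agent.P159.T1.NC.H831.Rule

/-!
P159, near-critical regime, second version: the uniform recursion and the sum rule, without
hypotheses.
-/

namespace Vale.Agent.P159.T1.NC.H831

open Vale.Agent.P159 Vale.Agent.P159.UJ

theorem stepU : NC.StepU :=
  UJ.H831.stepU_of (fun B t0 hB ht0 => UJ.H172.affU B t0 hB ht0) (fun B hB => UJ.H664.gLowU B hB)

theorem sumRule : NC.SumRule := sumRule_of stepU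

end Vale.Agent.P159.T1.NC.H831
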