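import Mathlib.Analysis.SpecialFunctions.Pow.Real
import Mathlib.Analysis.SpecialFunctions.Log.Basic

/-!
P159, near-critical regime: the combinatorics of windows. If the stiffness is below the critical
value at scale `L`, the vortex activity doubles in every flat window; hence the stiffness drops below
every threshold `t0 > 0` at a scale which is at most a power of `L`.
-/

namespace Vale.Agent.P159.T1.NC.H831

/-- the data at one value of `b`: `S` is the stiffness, `y` the activity, `L` the starting scale -/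
structure Dat (N p : ℕ) (A C δ t0 : ℝ) (S y : ℕ → ℝ) (L : ℕ) : Prop where
  one : 1 ≤ L
  mono : ∀ l k : ℕ, 1 ≤ l → 1 ≤ k → S (l * k) ≤ S l
  y_le : ∀ s : ℕ, 1 ≤ s → y s ≤ 1
  y_ge : ∀ s : ℕ, 1 ≤ s → Real.exp (-(C * (1 + Real.log s))) ≤ y s
  step : ∀ l m : ℕ, L ∣ l → 1 ≤ l → 1 ≤ m → t0 ≤ S l → A * (l : ℝ) ^ p ≤ ((l * m : ℕ) : ℝ) →
    S l - S (l * m * N) ≤ δ → 2 * y (l * m) ≤ y (l * m * N)

/-- the number of steps in one round -/
noncomputable def Rn (C : ℝ) (s : ℕ) : ℕ := ⌈C * (1 + Real.log s) / Real.log 2⌉₊ + 1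

theorem Rn_spec {C : ℝ} (s : ℕ) :
    Real.exp (C * (1 + Real.log s)) < (2 : ℝ) ^ Rn C s := by
  have h2 : 0 < Real.log 2 := Real.log_pos (by norm_num)
  have h1 : C * (1 + Real.log s) / Real.log 2 < (Rn C s : ℕ) := by
    unfold Rn
    push_cast
    exact lt_of_le_of_lt (Nat.le_ceil _) (by linarith)
  rw [div_lt_iff₀ h2] at h1
  have h3 : (2 : ℝ) ^ Rn C s = Real.exp ((Rn C s : ℕ) * Real.log 2) := by
    rw [Real.exp_nat_mul, Real.exp_log (by norm_num)]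
  rw [h3, Real.exp_lt_exp]
  exact h1

theorem Rn_le {C : ℝ} (hC : 0 ≤ C) (s : ℕ) :
    (Rn C s : ℝ) ≤ C * (1 + Real.log s) / Real.log 2 + 2 := by
  have h2 : 0 < Real.log 2 := Real.log_pos (by norm_num)
  have h0 : 0 ≤ Real.log s := Real.log_natCast_nonneg _
  unfold Rn
  push_cast
  have := Nat.ceil_lt_add_one (show 0 ≤ C * (1 + Real.log s) / Real.log 2 by positivity)
  linarith

/-- one round: the stiffness drops by `δ` at a scale which is a power of the scale -/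
theorem round {N p : ℕ} {A C δ : ℝ} (hN : 2 ≤ N) (hA : 1 ≤ A) (hC : 0 ≤ C) :
    ∃ (A1 : ℝ) (q : ℕ), 1 ≤ A1 ∧ ∀ (S y : ℕ → ℝ) (t0 : ℝ) (L : ℕ), Dat N p A C δ t0 S y L →
      ∀ l : ℕ, L ∣ l → 1 ≤ l → t0 ≤ S l →
        ∃ l' : ℕ, L ∣ l' ∧ 1 ≤ l' ∧ (l' : ℝ) ≤ A1 * (l : ℝ) ^ q ∧ S l' < S l - δ := by
  have h2 : 0 < Real.log 2 := Real.log_pos (by norm_num)
  have hNr : (2 : ℝ) ≤ N := by exact_mod_cast hN
  have hlN : 0 < Real.log N := Real.log_pos (by linarith)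
  obtain ⟨κ, hκ⟩ : ∃ κ : ℝ, κ = C / Real.log 2 * Real.log N := ⟨_, rfl⟩
  have hκ0 : 0 ≤ κ := by rw [hκ]; positivity
  obtain ⟨q, hq⟩ := exists_nat_ge ((p + 1 : ℝ) * (1 + κ))
  obtain ⟨a, ha⟩ : ∃ a : ℝ, a = (⌈A⌉₊ : ℝ) := ⟨_, rfl⟩
  have haA : A ≤ a := by rw [ha]; exact Nat.le_ceil A
  have ha1 : 1 ≤ a := by linarith
  have hA1 : 1 ≤ a ^ (1 + κ) * ((N : ℝ) ^ 2 * Real.exp κ) := by
    have e1 : 1 ≤ a ^ (1 + κ) := Real.one_le_rpow ha1 (by linarith)
    have e2 : 1 ≤ (N : ℝ) ^ 2 := by nlinarith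
    have e3 : 1 ≤ Real.exp κ := Real.one_le_exp hκ0
    nlinarith [mul_le_mul e2 e3 zero_le_one (by positivity)]
  refine ⟨a ^ (1 + κ) * ((N : ℝ) ^ 2 * Real.exp κ), q, hA1, ?_⟩
  intro S y t0 L D l hLl hl ht
  have hlr : (1 : ℝ) ≤ l := by exact_mod_cast hl
  have ha0 : 1 ≤ ⌈A⌉₊ := by
    have : (1 : ℝ) ≤ (⌈A⌉₊ : ℝ) := by rw [← ha]; exact ha1
    exact_mod_cast this
  obtain ⟨m0, hm0⟩ : ∃ m0 : ℕ, m0 = ⌈A⌉₊ * l ^ p := ⟨_, rfl⟩
  have hm1 : 1 ≤ m0 := by rw [hm0]; exact Nat.mul_pos ha0 (Nat.one_le_pow _ _ hl)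
  obtain ⟨s0, hs0⟩ : ∃ s0 : ℕ, s0 = l * m0 := ⟨_, rfl⟩
  have hs1 : 1 ≤ s0 := by rw [hs0]; exact Nat.mul_pos hl hm1
  obtain ⟨R, hR⟩ : ∃ R : ℕ, R = Rn C s0 := ⟨_, rfl⟩
  have hNp : 1 ≤ N := by omega
  have hNR : 1 ≤ N ^ R := Nat.one_le_pow _ _ hNp
  refine ⟨s0 * N ^ R, ?_, Nat.mul_pos hs1 hNR, ?_, ?_⟩
  · rw [hs0]; exact Dvd.dvd.mul_right (Dvd.dvd.mul_right hLl _) _
  · -- size
    have e0 : (s0 : ℝ) = a * (l : ℝ) ^ (p + 1) := by
      rw [hs0, hm0, ha]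
      push_cast
      ring
    have hs0r : (1 : ℝ) ≤ s0 := by exact_mod_cast hs1
    have e1 : ((N ^ R : ℕ) : ℝ) ≤ (N : ℝ) ^ 2 * Real.exp κ * (s0 : ℝ) ^ κ := by
      have e2 : ((N ^ R : ℕ) : ℝ) = Real.exp ((R : ℝ) * Real.log N) := by
        rw [Real.exp_nat_mul, Real.exp_log (by linarith)]
        push_cast
        rfl
      have e3 : (N : ℝ) ^ 2 * Real.exp κ * (s0 : ℝ) ^ κ =
          Real.exp (2 * Real.log N + κ + κ * Real.log s0) := by
        have f1 : Real.exp (2 * Real.log N) = (N : ℝ) ^ 2 := by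
          rw [two_mul, Real.exp_add, Real.exp_log (by linarith), sq]
        have f2 : Real.exp (κ * Real.log s0) = (s0 : ℝ) ^ κ := by
          rw [Real.rpow_def_of_pos (by linarith), mul_comm]
        rw [Real.exp_add, Real.exp_add, f1, f2]
      rw [e2, e3, Real.exp_le_exp]
      have e4 := Rn_le hC s0
      rw [← hR] at e4
      have e5 := mul_le_mul_of_nonneg_right e4 hlN.le
      have e6 : (C * (1 + Real.log s0) / Real.log 2 + 2) * Real.log N =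
          2 * Real.log N + κ + κ * Real.log s0 := by
        rw [hκ]
        field_simp
        ring
      linarith
    have e7 : (s0 : ℝ) ^ (1 + κ) ≤ a ^ (1 + κ) * (l : ℝ) ^ q := by
      rw [e0, Real.mul_rpow (by linarith) (by positivity)]
      refine mul_le_mul_of_nonneg_left ?_ (by positivity)
      rw [← Real.rpow_natCast (l : ℝ) (p + 1), ← Real.rpow_mul (by linarith),
        ← Real.rpow_natCast (l : ℝ) q]
      refine Real.rpow_le_rpow_of_exponent_le hlr ?_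
      push_cast
      exact hq
    calc ((s0 * N ^ R : ℕ) : ℝ) = (s0 : ℝ) * ((N ^ R : ℕ) : ℝ) := by push_cast; ring
      _ ≤ (s0 : ℝ) * ((N : ℝ) ^ 2 * Real.exp κ * (s0 : ℝ) ^ κ) :=
          mul_le_mul_of_nonneg_left e1 (by linarith)
      _ = ((N : ℝ) ^ 2 * Real.exp κ) * (s0 : ℝ) ^ (1 + κ) := by
          rw [Real.rpow_add (by linarith), Real.rpow_one]
          ring
      _ ≤ ((N : ℝ) ^ 2 * Real.exp κ) * (a ^ (1 + κ) * (l : ℝ) ^ q) :=
          mul_le_mul_of_nonneg_left e7 (by positivity)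
      _ = _ := by ring
  · -- the drop
    by_contra hcon
    push Not at hcon
    have hflat : ∀ r : ℕ, r < R → S l - S (s0 * N ^ (r + 1)) ≤ δ := by
      intro r hr
      have e1 : s0 * N ^ R = s0 * N ^ (r + 1) * N ^ (R - (r + 1)) := by
        rw [mul_assoc, ← pow_add]
        congr 2
        omega
      have e2 := D.mono (s0 * N ^ (r + 1)) (N ^ (R - (r + 1)))
        (Nat.mul_pos hs1 (Nat.one_le_pow _ _ hNp)) (Nat.one_le_pow _ _ hNp)
      rw [← e1] at e2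
      linarith
    have hiter : ∀ r : ℕ, r ≤ R → (2 : ℝ) ^ r * y s0 ≤ y (s0 * N ^ r) := by
      intro r
      induction r with
      | zero => intro _; simp
      | succ r ih =>
        intro hr
        have h3 := ih (by omega)
        have h4 := hflat r (by omega)
        have h5 : s0 * N ^ r = l * (m0 * N ^ r) := by rw [hs0, mul_assoc]
        have h6 : s0 * N ^ (r + 1) = l * (m0 * N ^ r) * N := by rw [hs0, pow_succ]; ring
        rw [h6] at h4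
        have h7 := D.step l (m0 * N ^ r) hLl hl
          (Nat.mul_pos hm1 (Nat.one_le_pow _ _ hNp)) ht ?_ h4
        · rw [h6]
          rw [h5] at h3
          rw [pow_succ]
          linarith
        · have h8 : (1 : ℝ) ≤ ((N ^ r : ℕ) : ℝ) := by exact_mod_cast Nat.one_le_pow _ _ hNp
          have h9 : ((l * (m0 * N ^ r) : ℕ) : ℝ) = (l : ℝ) * (a * (l : ℝ) ^ p) *
              ((N ^ r : ℕ) : ℝ) := by
            rw [hm0, ha]
            push_cast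
            ring
          rw [h9]
          have h10 : A ≤ a := haA
          have h11 : (0 : ℝ) ≤ (l : ℝ) ^ p := by positivity
          calc A * (l : ℝ) ^ p ≤ a * (l : ℝ) ^ p := mul_le_mul_of_nonneg_right h10 h11
            _ ≤ (l : ℝ) * (a * (l : ℝ) ^ p) :=
                le_mul_of_one_le_left (by positivity) hlr
            _ ≤ (l : ℝ) * (a * (l : ℝ) ^ p) * ((N ^ r : ℕ) : ℝ) :=
                le_mul_of_one_le_right (by positivity) h8
    have h3 := hiter R le_rfl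
    have h4 := D.y_le (s0 * N ^ R) (Nat.mul_pos hs1 hNR)
    have h5 := D.y_ge s0 hs1
    have h6 := Rn_spec (C := C) s0
    rw [← hR] at h6
    have h7 : (1 : ℝ) < (2 : ℝ) ^ R * y s0 := by
      have h8 : Real.exp (C * (1 + Real.log s0)) * Real.exp (-(C * (1 + Real.log s0))) = 1 := by
        rw [← Real.exp_add, add_neg_cancel, Real.exp_zero]
      have h9 : Real.exp (C * (1 + Real.log s0)) * Real.exp (-(C * (1 + Real.log s0))) <
          (2 : ℝ) ^ R * Real.exp (-(C * (1 + Real.log s0))) :=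
        mul_lt_mul_of_pos_right h6 (Real.exp_pos _)
      have h10 : (2 : ℝ) ^ R * Real.exp (-(C * (1 + Real.log s0))) ≤ (2 : ℝ) ^ R * y s0 :=
        mul_le_mul_of_nonneg_left h5 (by positivity)
      linarith
    linarith

/-- `n` rounds -/
theorem rounds {N p : ℕ} {A C δ : ℝ} (hN : 2 ≤ N) (hA : 1 ≤ A) (hC : 0 ≤ C) (n : ℕ) :
    ∃ (A1 : ℝ) (q : ℕ), 1 ≤ A1 ∧ ∀ (S y : ℕ → ℝ) (t0 : ℝ) (L : ℕ), Dat N p A C δ t0 S y L →
      ∃ l : ℕ, L ∣ l ∧ 1 ≤ l ∧ (l : ℝ) ≤ A1 * (L : ℝ) ^ q ∧ (S l < t0 ∨ S l ≤ S L - n * δ) := by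
  induction n with
  | zero =>
    refine ⟨1, 1, le_rfl, fun S y t0 L D => ⟨L, dvd_rfl, D.one, by simp, Or.inr (by simp)⟩⟩
  | succ n ih =>
    obtain ⟨A1, q1, h1, ih⟩ := ih
    obtain ⟨A2, q2, h2, hr⟩ := round (N := N) (p := p) (A := A) (C := C) (δ := δ) hN hA hC
    have hb0 : (1 : ℝ) ≤ A1 ^ q2 := one_le_pow₀ h1
    have hb2 : (1 : ℝ) ≤ A2 * A1 ^ q2 := by nlinarith
    have hb3 : (1 : ℝ) ≤ A1 * (A2 * A1 ^ q2) := by nlinarith
    refine ⟨A1 * (A2 * A1 ^ q2), q1 * q2 + q1, hb3, ?_⟩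
    intro S y t0 L D
    obtain ⟨l, hLl, hl, hsz, hS⟩ := ih S y t0 L D
    have hLr : (1 : ℝ) ≤ L := by exact_mod_cast D.one
    have hLq : ∀ i j : ℕ, i ≤ j → (L : ℝ) ^ i ≤ (L : ℝ) ^ j := fun i j h =>
      pow_le_pow_right₀ hLr h
    by_cases ht : S l < t0
    · refine ⟨l, hLl, hl, ?_, Or.inl ht⟩
      refine hsz.trans ?_
      have e1 := hLq q1 (q1 * q2 + q1) (by omega)
      have e2 : A1 ≤ A1 * (A2 * A1 ^ q2) := le_mul_of_one_le_right (by linarith) hb2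
      exact mul_le_mul e2 e1 (by positivity) (by linarith)
    · push Not at ht
      obtain ⟨l', h3, h4, h5, h6⟩ := hr S y t0 L D l hLl hl ht
      refine ⟨l', h3, h4, ?_, Or.inr ?_⟩
      · refine h5.trans ?_
        have e1 : (l : ℝ) ^ q2 ≤ (A1 * (L : ℝ) ^ q1) ^ q2 :=
          pow_le_pow_left₀ (Nat.cast_nonneg _) hsz _
        have e2 : (A1 * (L : ℝ) ^ q1) ^ q2 = A1 ^ q2 * (L : ℝ) ^ (q1 * q2) := by
          rw [mul_pow, ← pow_mul]
        have e3 := hLq (q1 * q2) (q1 * q2 + q1) (by omega)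
        calc A2 * (l : ℝ) ^ q2 ≤ A2 * (A1 ^ q2 * (L : ℝ) ^ (q1 * q2)) := by
              rw [← e2]; exact mul_le_mul_of_nonneg_left e1 (by linarith)
          _ ≤ A2 * (A1 ^ q2 * (L : ℝ) ^ (q1 * q2 + q1)) := by gcongr
          _ = 1 * ((A2 * A1 ^ q2) * (L : ℝ) ^ (q1 * q2 + q1)) := by ring
          _ ≤ A1 * ((A2 * A1 ^ q2) * (L : ℝ) ^ (q1 * q2 + q1)) :=
              mul_le_mul_of_nonneg_right h1 (by positivity)
          _ = _ := by ring
      · rcases hS with hS | hS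
        · exact absurd hS (not_lt.2 ht)
        · push_cast
          linarith

/-- **windows**: the stiffness drops below `t0` at a scale which is a power of `L` -/
theorem windows {N p : ℕ} {A C δ B : ℝ} (hN : 2 ≤ N) (hA : 1 ≤ A) (hC : 0 ≤ C) (hδ : 0 < δ) :
    ∃ (A1 : ℝ) (q : ℕ), 1 ≤ A1 ∧ ∀ (S y : ℕ → ℝ) (t0 : ℝ) (L : ℕ), Dat N p A C δ t0 S y L →
      (∀ l : ℕ, 1 ≤ l → 0 ≤ S l) → S L ≤ B → 0 < t0 →
      ∃ l : ℕ, L ∣ l ∧ 1 ≤ l ∧ (l : ℝ) ≤ A1 * (L : ℝ) ^ q ∧ S l < t0 := by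
  obtain ⟨n, hn⟩ := exists_nat_ge (B / δ)
  obtain ⟨A1, q, h1, h⟩ := rounds (N := N) (p := p) (δ := δ) hN hA hC n
  refine ⟨A1, q, h1, fun S y t0 L D h0 hB ht => ?_⟩
  obtain ⟨l, h2, h3, h4, h5⟩ := h S y t0 L D
  refine ⟨l, h2, h3, h4, ?_⟩
  rcases h5 with h5 | h5
  · exact h5
  · rw [div_le_iff₀ hδ] at hn
    have := h0 l h3
    linarith

end Vale.Agent.P159.T1.NC.H831
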